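import Crest.Agent.Helper75.OT.Defs
import Crest.Agent.Helper26.PL.Multi

/-!
# Row 82 (S0109) — packages P1 and Pn: Prékopa–Leindler (midpoint form), Spec names.

The three statements `pl_one_dim`, `pl_pi`, `prekopa_leindler` of
`Crest.Agent.Helper75.OT.Spec`, proved (same names, same statements) in the namespace
`Crest.Agent.Helper75.OT`.  The proofs live in `Crest.Agent.Helper26.PL.{OneDim, Multi}`.
-/

set_option autoImplicit false

noncomputable section

open MeasureTheory Filter Topology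
open scoped ENNReal NNReal RealInnerProductSpace

namespace Crest.Agent.Helper75.OT

open Crest.AnalysisR.OT

variable {d : ℕ}

theorem pl_one_dim (f g h : ℝ → ℝ≥0∞) (hf : Measurable f) (hg : Measurable g) (hh : Measurable h)
    (H : ∀ x y, f x * g y ≤ h ((x + y) / 2) ^ 2) :
    (∫⁻ x, f x) * (∫⁻ x, g x) ≤ (∫⁻ x, h x) ^ 2 :=
  Crest.Agent.Helper26.PL.prekopa_leindler_real f g h hf hg hh H

theorem pl_pi (n : ℕ) (f g h : (Fin n → ℝ) → ℝ≥0∞) (hf : Measurable f) (hg : Measurable g)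
    (hh : Measurable h) (H : ∀ x y, f x * g y ≤ h ((1 / 2 : ℝ) • (x + y)) ^ 2) :
    (∫⁻ x, f x) * (∫⁻ x, g x) ≤ (∫⁻ x, h x) ^ 2 :=
  Crest.Agent.Helper26.PL.prekopa_leindler_pi n f g h hf hg hh H

theorem prekopa_leindler (f g h : E d → ℝ≥0∞) (hf : Measurable f) (hg : Measurable g)
    (hh : Measurable h) (H : ∀ x y, f x * g y ≤ h ((1 / 2 : ℝ) • (x + y)) ^ 2) :
    (∫⁻ x, f x) * (∫⁻ x, g x) ≤ (∫⁻ x, h x) ^ 2 :=
  Crest.Agent.Helper26.PL.prekopa_leindler_euclidean d f g h hf hg hh H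

end Crest.Agent.Helper75.OT
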