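import Mathlib
import Crest.Prelude.Def_QuadraticTransport

/-!
# Row 82 (S0109), package D2: sup-norm from the `L²(ρ)`-norm for Lipschitz functions on a
convex body.

Statement copied from `Crest/Agent/Helper66/OT/SubSpec.lean` (same name, same namespace).
-/

set_option autoImplicit false
open MeasureTheory
open scoped ENNReal NNReal
open Crest.AnalysisR.OT

namespace Crest.Agent.Helper66.OT

/-- **D2 (sup from L²).** On a convex body, an `L`-Lipschitz function with small `L²(ρ)`-norm is
uniformly small. -/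
theorem lipschitz_sup_lt_of_sq_integral_lt {d : ℕ} (K : Set (EuclideanSpace ℝ (Fin d)))
    (hKc : IsCompact K) (hKv : Convex ℝ K) (hKi : (interior K).Nonempty) (L : ℝ) (hL : 0 < L)
    (η : ℝ) (hη : 0 < η) :
    ∃ δ : ℝ, 0 < δ ∧ ∀ g : EuclideanSpace ℝ (Fin d) → ℝ,
      (∀ x ∈ K, ∀ z ∈ K, |g x - g z| ≤ L * ‖x - z‖) →
      ∫ x, (g x) ^ 2 ∂(uniformProbOn K) < δ → ∀ x ∈ K, |g x| < η := by
  -- the scale
  set D : ℝ := Metric.diam K + 1 with hD
  have hD0 : 0 < D := by have := Metric.diam_nonneg (s := K); linarith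
  have hDK : ∀ x ∈ K, ∀ z ∈ K, ‖x - z‖ ≤ D := by
    intro x hx z hz
    have := Metric.dist_le_diam_of_mem hKc.isBounded hx hz
    rw [dist_eq_norm] at this
    linarith
  set t : ℝ := min 1 (η / (2 * L * D)) with ht
  have ht0 : 0 < t := lt_min one_pos (by positivity)
  have ht1 : t ≤ 1 := min_le_left _ _
  have htD : t * D ≤ η / (2 * L) := by
    have h1 : t ≤ η / (2 * L * D) := min_le_right _ _
    calc t * D ≤ η / (2 * L * D) * D := by gcongr
      _ = η / (2 * L) := by field_simp
  -- volume of K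
  have hvol_pos : 0 < volume K := Measure.measure_pos_of_nonempty_interior _ hKi
  have hvol_fin : volume K ≠ ∞ := hKc.measure_lt_top.ne
  have hvolR : 0 < (volume K).toReal := ENNReal.toReal_pos hvol_pos.ne' hvol_fin
  refine ⟨(η / 2) ^ 2 * t ^ d, by positivity, ?_⟩
  intro g hg hint x₁ hx₁
  by_contra hcon
  have hcon' : η ≤ |g x₁| := not_lt.mp hcon
  -- the homothetic copy
  set Kt : Set (EuclideanSpace ℝ (Fin d)) := AffineMap.homothety x₁ t '' K with hKt
  have hKtK : Kt ⊆ K := by
    rintro _ ⟨x, hx, rfl⟩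
    have : AffineMap.homothety x₁ t x = (1 - t) • x₁ + t • x := by
      rw [AffineMap.homothety_apply]
      simp only [vsub_eq_sub, vadd_eq_add]
      module
    rw [this]
    exact hKv hx₁ hx (by linarith) ht0.le (by ring)
  have hKt_big : ∀ p ∈ Kt, (η / 2) ^ 2 ≤ g p ^ 2 := by
    rintro _ ⟨x, hx, rfl⟩
    set p := AffineMap.homothety x₁ t x with hp
    have hpK : p ∈ K := hKtK ⟨x, hx, rfl⟩
    have hnorm : ‖p - x₁‖ ≤ η / (2 * L) := by
      have : p - x₁ = t • (x - x₁) := by
        rw [hp, AffineMap.homothety_apply]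
        simp only [vsub_eq_sub, vadd_eq_add]
        module
      rw [this, norm_smul, Real.norm_eq_abs, abs_of_pos ht0]
      calc t * ‖x - x₁‖ ≤ t * D := by gcongr; exact hDK x hx x₁ hx₁
        _ ≤ η / (2 * L) := htD
    have h1 : |g p - g x₁| ≤ η / 2 := by
      calc |g p - g x₁| ≤ L * ‖p - x₁‖ := hg p hpK x₁ hx₁
        _ ≤ L * (η / (2 * L)) := by gcongr
        _ = η / 2 := by field_simp
    have h2 : η / 2 ≤ |g p| := by
      have := abs_sub_abs_le_abs_sub (g x₁) (g p)
      rw [abs_sub_comm (g x₁) (g p)] at this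
      linarith
    calc (η / 2) ^ 2 ≤ |g p| ^ 2 := by gcongr
      _ = g p ^ 2 := sq_abs _
  have hKt_compact : IsCompact Kt := hKc.image (AffineMap.homothety_continuous x₁ t)
  have hKt_vol : volume Kt = ENNReal.ofReal (t ^ d) * volume K := by
    rw [hKt, Measure.addHaar_image_homothety, finrank_euclideanSpace_fin, abs_of_pos (by positivity)]
  -- integrability
  have hcont : ContinuousOn g K := by
    have : LipschitzOnWith ⟨L, hL.le⟩ g K := by
      refine LipschitzOnWith.of_dist_le_mul fun x hx z hz => ?_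
      rw [Real.dist_eq, dist_eq_norm]
      exact hg x hx z hz
    exact this.continuousOn
  have hintK : IntegrableOn (fun x => g x ^ 2) K volume :=
    (hcont.pow 2).integrableOn_compact hKc
  -- lower bound of the integral
  have hI1 : (η / 2) ^ 2 * (t ^ d * (volume K).toReal) ≤ ∫ x in K, g x ^ 2 := by
    calc (η / 2) ^ 2 * (t ^ d * (volume K).toReal)
        = ∫ _x in Kt, (η / 2) ^ 2 := by
          rw [setIntegral_const, Measure.real, hKt_vol, ENNReal.toReal_mul,
            ENNReal.toReal_ofReal (by positivity), smul_eq_mul]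
          ring
      _ ≤ ∫ x in Kt, g x ^ 2 :=
          setIntegral_mono_on (integrableOn_const (hKt_compact.measure_lt_top.ne))
            (hintK.mono_set hKtK) hKt_compact.measurableSet hKt_big
      _ ≤ ∫ x in K, g x ^ 2 :=
          setIntegral_mono_set hintK (Filter.Eventually.of_forall fun x => sq_nonneg _)
            (Filter.Eventually.of_forall hKtK)
  have hI2 : ∫ x, g x ^ 2 ∂(uniformProbOn K) = (volume K).toReal⁻¹ * ∫ x in K, g x ^ 2 := by
    rw [uniformProbOn, integral_smul_measure, ENNReal.toReal_inv, smul_eq_mul]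
  rw [hI2] at hint
  have : (η / 2) ^ 2 * t ^ d ≤ (volume K).toReal⁻¹ * ∫ x in K, g x ^ 2 := by
    rw [le_inv_mul_iff₀ hvolR]
    calc (volume K).toReal * ((η / 2) ^ 2 * t ^ d)
        = (η / 2) ^ 2 * (t ^ d * (volume K).toReal) := by ring
      _ ≤ _ := hI1
  linarith

end Crest.Agent.Helper66.OT
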